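import Vale.Agent.Lib.P062.Core

/-!
Second certificate format: skew binary random access lists, inline leaves, grouped replies,
written with recursors and primitive operations only, and certificates split over modules.
-/

namespace Vale.Agent.Lib.P062b

open Vale.Agent.Lib.P062

/-! ### Skew binary random access lists of pairs of masks -/

/-- Complete binary trees holding two numbers at each node. -/
inductive BT where
  | leaf (r f : ℕ) : BT
  | node (r f : ℕ) (l rr : BT) : BT

/-- Lists of complete binary trees, each with its size. -/
inductive Sk where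
  | nil : Sk
  | cons (w : ℕ) (t : BT) (rest : Sk) : Sk

/-- Every stored pair of masks is good. -/
def BT.All : BT → Prop
  | .leaf r f => Good r f
  | .node r f l rr => Good r f ∧ l.All ∧ rr.All

/-- Every stored pair of masks is good. -/
def Sk.All : Sk → Prop
  | .nil => True
  | .cons _ t rest => t.All ∧ rest.All

/-- Push a pair on a skew binary list. -/
noncomputable def pushS (r f : ℕ) (s : Sk) : Sk :=
  Sk.rec (motive := fun _ => Sk) (Sk.cons 1 (BT.leaf r f) Sk.nil)
    (fun w1 t1 rest1 _ =>
      Sk.rec (motive := fun _ => Sk) (Sk.cons 1 (BT.leaf r f) (Sk.cons w1 t1 Sk.nil))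
        (fun w2 t2 rest2 _ =>
          Bool.rec (motive := fun _ => Sk)
            (Sk.cons 1 (BT.leaf r f) (Sk.cons w1 t1 (Sk.cons w2 t2 rest2)))
            (Sk.cons (Nat.succ (Nat.add w1 w1)) (BT.node r f t1 t2) rest2)
            (Nat.beq w1 w2)) rest1) s

theorem pushS_all (r f : ℕ) (s : Sk) (hg : Good r f) (hs : s.All) : (pushS r f s).All := by
  cases s with
  | nil => exact ⟨hg, trivial⟩
  | cons w1 t1 rest1 =>
    cases rest1 with
    | nil => exact ⟨hg, hs⟩
    | cons w2 t2 rest2 =>
      rcases hs with ⟨h1, h2, h3⟩
      have : pushS r f (Sk.cons w1 t1 (Sk.cons w2 t2 rest2)) =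
          Bool.rec (motive := fun _ => Sk)
            (Sk.cons 1 (BT.leaf r f) (Sk.cons w1 t1 (Sk.cons w2 t2 rest2)))
            (Sk.cons (Nat.succ (Nat.add w1 w1)) (BT.node r f t1 t2) rest2)
            (Nat.beq w1 w2) := rfl
      rw [this]
      cases Nat.beq w1 w2
      · exact ⟨hg, h1, h2, h3⟩
      · exact ⟨⟨hg, h1, h2⟩, h3⟩

/-- Lookup in a complete binary tree of size `w`, in continuation passing style. -/
noncomputable def treeK (succ : ℕ → ℕ → Bool) (t : BT) : ℕ → ℕ → Bool :=
  BT.rec (motive := fun _ => ℕ → ℕ → Bool)
    (fun r f _ _ => succ r f)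
    (fun r f _ _ ihl ihr w i =>
      Bool.rec (motive := fun _ => Bool)
        ((fun h =>
          Bool.rec (motive := fun _ => Bool)
            (ihr h (Nat.sub (Nat.sub i 1) h)) (ihl h (Nat.sub i 1)) (Nat.ble i h))
          (Nat.shiftRight w 1))
        (succ r f)
        (Nat.beq i 0))
    t

theorem treeK_sound (succ : ℕ → ℕ → Bool) (t : BT) (ht : t.All) (w i : ℕ)
    (h : treeK succ t w i = true) : ∃ r f, Good r f ∧ succ r f = true := by
  induction t generalizing w i with
  | leaf r f => exact ⟨r, f, ht, h⟩
  | node r f l rr ihl ihr =>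
    rcases ht with ⟨h1, h2, h3⟩
    have h' : (Bool.rec (motive := fun _ => Bool)
        (Bool.rec (motive := fun _ => Bool)
          (treeK succ rr (Nat.shiftRight w 1) (Nat.sub (Nat.sub i 1) (Nat.shiftRight w 1)))
          (treeK succ l (Nat.shiftRight w 1) (Nat.sub i 1)) (Nat.ble i (Nat.shiftRight w 1)))
        (succ r f) (Nat.beq i 0)) = true := h
    cases e1 : Nat.beq i 0
    · rw [e1] at h'
      cases e2 : Nat.ble i (Nat.shiftRight w 1)
      · rw [e2] at h'
        exact ihr h3 _ _ h'
      · rw [e2] at h'
        exact ihl h2 _ _ h'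
    · rw [e1] at h'
      exact ⟨r, f, h1, h'⟩

/-- Lookup by distance from the top of the list. -/
noncomputable def getK (succ : ℕ → ℕ → Bool) (s : Sk) : ℕ → Bool :=
  Sk.rec (motive := fun _ => ℕ → Bool) (fun _ => false)
    (fun w t _ ih i =>
      Bool.rec (motive := fun _ => Bool) (ih (Nat.sub i w)) (treeK succ t w i)
        (Nat.ble (Nat.succ i) w))
    s

theorem getK_sound (succ : ℕ → ℕ → Bool) (s : Sk) (hs : s.All) (i : ℕ)
    (h : getK succ s i = true) : ∃ r f, Good r f ∧ succ r f = true := by
  induction s generalizing i with
  | nil => exact absurd h (by simp [getK])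
  | cons w t rest ih =>
    rcases hs with ⟨h1, h2⟩
    have h' : (Bool.rec (motive := fun _ => Bool) (getK succ rest (Nat.sub i w))
        (treeK succ t w i) (Nat.ble (Nat.succ i) w)) = true := h
    cases e : Nat.ble (Nat.succ i) w
    · rw [e] at h'
      exact ih h2 _ h'
    · rw [e] at h'
      exact treeK_sound succ t h1 w i h'

/-! ### Children: either a reference or an inline leaf -/

/-- The masks of the eight orientations in one number. -/
def oriTable : ℕ := 11844774455072859158811331776356591568915341054078385618131656282091750015665083507319663576935274379449762125069396768007456369543381860267795972762620330555095353052960500434801791640474413350990412763688095583875768072011791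

/-- The mask of orientation `o`, read from the table. -/
def oriMaskF (o : ℕ) : ℕ := Nat.land (Nat.shiftRight oriTable (Nat.mul o 94)) 19807040628566084398385987583

theorem oriMaskF_eq {o : ℕ} (ho : o < 8) : oriMaskF o = oriMask o := by
  interval_cases o <;> decide +kernel

theorem oriWidth_eq (o : ℕ) : (Bool.rec (motive := fun _ => ℕ) 4 1 (Nat.ble 4 o)) = oriWidth o := by
  unfold oriWidth
  cases Nat.ble 4 o <;> rfl

/-- A child is `2 * dist` (a reference at distance `dist`) or `2 * (o + 8 * a + 8192 * c) + 1`
(an inline leaf: orientation `o`, anchor `a`, missing cell `c`). -/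
noncomputable def childK (s : Sk) (ch : ℕ) (k : ℕ → ℕ → Bool) : Bool :=
  (fun m =>
    Bool.rec (motive := fun _ => Bool)
      ((fun o =>
        (fun a =>
          (fun b =>
            Bool.rec (motive := fun _ => Bool) false
              (k (Nat.xor (Nat.shiftLeft (oriMaskF o) a) b) b)
              (Nat.ble (Nat.succ (Nat.add (Nat.mod a 23)
                (Bool.rec (motive := fun _ => ℕ) 4 1 (Nat.ble 4 o)))) 23))
            (Nat.shiftLeft 1 (Nat.shiftRight m 13)))
          (Nat.land (Nat.shiftRight m 3) 1023))
        (Nat.land m 7))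
      (getK k s m)
      (Nat.beq (Nat.land ch 1) 0))
    (Nat.shiftRight ch 1)

theorem childK_sound (s : Sk) (hs : s.All) (ch : ℕ) (k : ℕ → ℕ → Bool)
    (h : childK s ch k = true) : ∃ R F, Good R F ∧ k R F = true := by
  unfold childK at h
  simp only at h
  cases h1 : Nat.beq (Nat.land ch 1) 0
  · rw [h1] at h
    set m := Nat.shiftRight ch 1
    have h2 : (Bool.rec (motive := fun _ => Bool) false
        (k (Nat.xor (Nat.shiftLeft (oriMaskF (Nat.land m 7)) (Nat.land (Nat.shiftRight m 3) 1023))
          (Nat.shiftLeft 1 (Nat.shiftRight m 13))) (Nat.shiftLeft 1 (Nat.shiftRight m 13)))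
        (Nat.ble (Nat.succ (Nat.add (Nat.mod (Nat.land (Nat.shiftRight m 3) 1023) 23)
          (Bool.rec (motive := fun _ => ℕ) 4 1 (Nat.ble 4 (Nat.land m 7))))) 23)) = true := h
    have ho : Nat.land m 7 < 8 := by
      have : Nat.land m 7 = m % 8 := Nat.and_two_pow_sub_one_eq_mod m 3
      rw [this]; exact Nat.mod_lt _ (by norm_num)
    rw [oriWidth_eq, oriMaskF_eq ho] at h2
    cases h3 : Nat.ble (Nat.succ (Nat.add (Nat.mod (Nat.land (Nat.shiftRight m 3) 1023) 23)
        (oriWidth (Nat.land m 7)))) 23
    · rw [h3] at h2
      exact absurd h2 (by simp)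
    · rw [h3] at h2
      refine ⟨_, _, leaf_good ho ?_ (Nat.shiftRight m 13), h2⟩
      exact Nat.le_of_ble_eq_true h3
  · rw [h1] at h
    exact getK_sound k s hs _ h

/-! ### The reply fold -/

/-- Fold over packed replies: digits base `2 ^ 36`, each digit `c + 1024 * ch` with `ch` a child
code, or `ch = 1`: the same child as the digit before. -/
noncomputable def gatherK (s : Sk) (succ : ℕ → ℕ → ℕ → Bool) (cnt : ℕ) :
    ℕ → ℕ → ℕ → ℕ → ℕ → Bool :=
  Nat.rec (motive := fun _ => ℕ → ℕ → ℕ → ℕ → ℕ → Bool)
    (fun _ ra fa cv _ => succ ra fa cv)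
    (fun _ ih n ra fa cv fc =>
      (fun dg =>
        (fun c =>
          (fun ch =>
            Bool.rec (motive := fun _ => Bool)
              (childK s ch (fun r f =>
                Bool.rec (motive := fun _ => Bool)
                  (ih (Nat.shiftRight n 36) (Nat.lor ra r) (Nat.lor fa f)
                    (Nat.lor cv (Nat.shiftLeft 1 c)) f)
                  false
                  (Nat.beq (Nat.land (Nat.shiftRight f c) 1) 1)))
              (Bool.rec (motive := fun _ => Bool)
                (ih (Nat.shiftRight n 36) ra fa (Nat.lor cv (Nat.shiftLeft 1 c)) fc)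
                false
                (Nat.beq (Nat.land (Nat.shiftRight fc c) 1) 1))
              (Nat.beq ch 1))
            (Nat.shiftRight dg 10))
          (Nat.land dg 1023))
        (Nat.land n 68719476735))
    cnt

theorem gatherK_sound (s : Sk) (hs : s.All) (succ : ℕ → ℕ → ℕ → Bool) (cnt n ra fa cv fc r0 : ℕ)
    (hg0 : Good r0 fc) (hr0 : ∀ i, tb r0 i = true → tb ra i = true)
    (hf0 : ∀ i, tb fc i = true → tb fa i = true)
    (h : gatherK s succ cnt n ra fa cv fc = true) :
    ∃ ra' fa' cv', succ ra' fa' cv' = true ∧
      (∀ i, tb ra i = true → tb ra' i = true) ∧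
      (∀ i, tb fa i = true → tb fa' i = true) ∧
      (∀ i, tb cv' i = true → tb cv i = true ∨
        ∃ r f, Good r f ∧ tb f i = false ∧
          (∀ j, tb r j = true → tb ra' j = true) ∧
          (∀ j, tb f j = true → tb fa' j = true)) := by
  induction cnt generalizing n ra fa cv fc r0 with
  | zero =>
    exact ⟨ra, fa, cv, h, fun _ h => h, fun _ h => h, fun _ h => Or.inl h⟩
  | succ cnt ih =>
    set dg := Nat.land n 68719476735 with hdg
    set c := Nat.land dg 1023 with hc
    set ch := Nat.shiftRight dg 10 with hch
    have h' : (Bool.rec (motive := fun _ => Bool)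
        (childK s ch (fun r f =>
          Bool.rec (motive := fun _ => Bool)
            (gatherK s succ cnt (Nat.shiftRight n 36) (Nat.lor ra r) (Nat.lor fa f)
              (Nat.lor cv (bitm c)) f)
            false (tb f c)))
        (Bool.rec (motive := fun _ => Bool)
          (gatherK s succ cnt (Nat.shiftRight n 36) ra fa (Nat.lor cv (bitm c)) fc)
          false (tb fc c))
        (Nat.beq ch 1)) = true := h
    have key : ∀ (ra1 fa1 cv1 : ℕ) (r1 f1 : ℕ), Good r1 f1 → tb f1 c = false →
        (∀ i, tb ra i = true → tb ra1 i = true) → (∀ i, tb fa i = true → tb fa1 i = true) →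
        (∀ i, tb r1 i = true → tb ra1 i = true) → (∀ i, tb f1 i = true → tb fa1 i = true) →
        cv1 = Nat.lor cv (bitm c) →
        (∃ ra' fa' cv', succ ra' fa' cv' = true ∧
          (∀ i, tb ra1 i = true → tb ra' i = true) ∧
          (∀ i, tb fa1 i = true → tb fa' i = true) ∧
          (∀ i, tb cv' i = true → tb cv1 i = true ∨
            ∃ r f, Good r f ∧ tb f i = false ∧
              (∀ j, tb r j = true → tb ra' j = true) ∧
              (∀ j, tb f j = true → tb fa' j = true))) →
        ∃ ra' fa' cv', succ ra' fa' cv' = true ∧
          (∀ i, tb ra i = true → tb ra' i = true) ∧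
          (∀ i, tb fa i = true → tb fa' i = true) ∧
          (∀ i, tb cv' i = true → tb cv i = true ∨
            ∃ r f, Good r f ∧ tb f i = false ∧
              (∀ j, tb r j = true → tb ra' j = true) ∧
              (∀ j, tb f j = true → tb fa' j = true)) := by
      intro ra1 fa1 cv1 r1 f1 hG hfc hm1 hm2 hm3 hm4 hcv1 hex
      obtain ⟨ra', fa', cv', hs', hm1', hm2', hcov⟩ := hex
      refine ⟨ra', fa', cv', hs', fun i hi => hm1' i (hm1 i hi), fun i hi => hm2' i (hm2 i hi), ?_⟩
      intro i hi
      rcases hcov i hi with h1 | h1
      · rw [hcv1, tb_lor, tb_bitm, Bool.or_eq_true] at h1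
        rcases h1 with h1 | h1
        · exact Or.inl h1
        · right
          have hic : i = c := by simpa using h1
          subst hic
          exact ⟨r1, f1, hG, hfc, fun j hj => hm1' j (hm3 j hj), fun j hj => hm2' j (hm4 j hj)⟩
      · exact Or.inr h1
    cases e : Nat.beq ch 1
    · rw [e] at h'
      obtain ⟨r, f, hG, hk⟩ := childK_sound s hs _ _ h'
      cases hfc : tb f c
      · rw [hfc] at hk
        refine key _ _ _ r f hG hfc ?_ ?_ ?_ ?_ rfl (ih _ _ _ _ _ r hG ?_ ?_ hk)
        · intro i hi; rw [tb_lor, hi]; rfl
        · intro i hi; rw [tb_lor, hi]; rfl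
        · intro i hi; rw [tb_lor, hi, Bool.or_true]
        · intro i hi; rw [tb_lor, hi, Bool.or_true]
        · intro i hi; rw [tb_lor, hi, Bool.or_true]
        · intro i hi; rw [tb_lor, hi, Bool.or_true]
      · rw [hfc] at hk
        exact absurd hk (by simp)
    · rw [e] at h'
      cases hfc : tb fc c
      · rw [hfc] at h'
        exact key _ _ _ r0 fc hg0 hfc (fun _ h => h) (fun _ h => h) hr0 hf0 rfl
          (ih _ _ _ _ _ r0 hg0 hr0 hf0 h')
      · rw [hfc] at h'
        exact absurd h' (by simp)

/-- The interior rule: move `x`, default child code `dch`, `cnt` packed replies. -/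
noncomputable def interiorK (s : Sk) (x dch cnt reps : ℕ) (k : ℕ → ℕ → Bool) : Bool :=
  childK s dch (fun rd fd =>
    gatherK s (fun ra fa cv =>
        (fun bx =>
          (fun r =>
            (fun u => Bool.rec (motive := fun _ => Bool) false (k r fa) (Nat.beq (Nat.lor fd u) u))
              (Nat.lor (Nat.lor r bx) cv))
            (Nat.xor ra (Nat.land ra bx)))
          (Nat.shiftLeft 1 x))
      cnt reps rd (Nat.lor fd (Nat.shiftLeft 1 x)) 0 fd)

theorem interiorK_sound (s : Sk) (hs : s.All) (x dch cnt reps : ℕ) (k : ℕ → ℕ → Bool)
    (h : interiorK s x dch cnt reps k = true) : ∃ R F, Good R F ∧ k R F = true := by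
  obtain ⟨rd, fd, hGd, h1⟩ := childK_sound s hs _ _ h
  obtain ⟨ra, fa, cv, hs1, hm1, hm2, hcover⟩ := gatherK_sound s hs _ _ _ _ _ _ _ rd hGd
    (fun _ h => h)
    (by intro i hi; have : tb (Nat.lor fd (bitm x)) i = true := by rw [tb_lor, hi]; rfl
        exact this) h1
  have hs' : (Bool.rec (motive := fun _ => Bool) false (k (clearBit ra x) fa)
      (Nat.beq (Nat.lor fd (Nat.lor (Nat.lor (clearBit ra x) (bitm x)) cv))
        (Nat.lor (Nat.lor (clearBit ra x) (bitm x)) cv))) = true := hs1
  cases hcv : Nat.beq (Nat.lor fd (Nat.lor (Nat.lor (clearBit ra x) (bitm x)) cv))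
      (Nat.lor (Nat.lor (clearBit ra x) (bitm x)) cv)
  · rw [hcv] at hs'; exact absurd hs' (by simp)
  rw [hcv] at hs'
  have hk : k (clearBit ra x) fa = true := hs'
  refine ⟨clearBit ra x, fa, ?_, hk⟩
  have hcov' : ∀ i, tb fd i = true →
      (tb (clearBit ra x) i = true ∨ i = x) ∨ tb cv i = true := by
    intro i hi
    have heq := Nat.eq_of_beq_eq_true hcv
    have h2 := congrArg (fun n => tb n i) heq
    simp only [tb_lor, tb_bitm, hi, Bool.true_or] at h2
    have h3 := h2.symm
    simpa [Bool.or_eq_true] using h3
  intro M B hR hF
  have hxB : cellOf x ∉ B := by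
    apply hF
    apply hm2
    rw [show Nat.lor fd (Nat.shiftLeft 1 x) = Nat.lor fd (bitm x) from rfl, tb_lor, tb_bitm]; simp
  have hFd : ∀ i, tb fd i = true → cellOf i ∉ B := by
    intro i hi
    apply hF
    apply hm2
    rw [show Nat.lor fd (Nat.shiftLeft 1 x) = Nat.lor fd (bitm x) from rfl, tb_lor, hi]; rfl
  have hRa : ∀ i, tb ra i = true → i ≠ x → cellOf i ∈ M := by
    intro i hi hix
    apply hR
    rw [tb_clearBit]
    simp [hi, hix]
  by_cases hxM : cellOf x ∈ M
  · apply hGd M B _ hFd
    intro i hi
    by_cases hix : i = x
    · rw [hix]; exact hxM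
    · exact hRa i (hm1 i hi) hix
  · refine MakerForces.move (cellOf x) hxM hxB ?_
    intro y hy1 hy2
    have hRins : ∀ i, tb ra i = true → cellOf i ∈ insert (cellOf x) M := by
      intro i hi
      by_cases hix : i = x
      · rw [hix]; exact Finset.mem_insert_self _ _
      · exact Finset.mem_insert_of_mem (hRa i hi hix)
    by_cases hy : ∃ i, tb fd i = true ∧ cellOf i = y
    · obtain ⟨i, hi, rfl⟩ := hy
      rcases hcov' i hi with (h1 | h1) | h1
      · exfalso
        apply hy1
        apply Finset.mem_insert_of_mem
        apply hR
        exact h1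
      · exfalso
        apply hy1
        rw [h1]; exact Finset.mem_insert_self _ _
      · rcases hcover i h1 with h2 | ⟨r, f, hG, hfi, hr, hf⟩
        · have : tb 0 i = false := by rw [tb_eq]; simp
          rw [this] at h2; exact Bool.noConfusion h2
        · apply hG
          · intro j hj
            exact hRins j (hr j hj)
          · intro k hk
            rw [Finset.mem_insert]
            rintro (h3 | h3)
            · have := cellOf_inj h3
              subst this
              rw [hk] at hfi
              exact Bool.noConfusion hfi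
            · exact hF k (hf k hk) h3
    · apply hGd
      · intro i hi
        exact hRins i (hm1 i hi)
      · intro k hk
        rw [Finset.mem_insert]
        rintro (h3 | h3)
        · exact hy ⟨k, hk, h3⟩
        · exact hFd k hk h3

/-! ### Running certificates -/

/-- One node: `x + 2^10 * cnt + 2^20 * dch + 2^60 * reps`. -/
noncomputable def stepK (s : Sk) (n : ℕ) (k : ℕ → ℕ → Bool) : Bool :=
  interiorK s (Nat.land n 1023) (Nat.land (Nat.shiftRight n 20) 1099511627775)
    (Nat.land (Nat.shiftRight n 10) 1023) (Nat.shiftRight n 60) k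

theorem stepK_sound (s : Sk) (hs : s.All) (n : ℕ) (k : ℕ → ℕ → Bool)
    (h : stepK s n k = true) : ∃ R F, Good R F ∧ k R F = true :=
  interiorK_sound s hs _ _ _ _ k h

/-- Run `cnt` packed nodes, all in one number. -/
noncomputable def runK (final : Sk → Bool) (cnt : ℕ) : ℕ → Sk → Bool :=
  Nat.rec (motive := fun _ => ℕ → Sk → Bool) (fun _ s => final s)
    (fun _ ih n s =>
      stepK s n (fun r f =>
        ih (Nat.shiftRight n (Nat.add 60 (Nat.mul 36 (Nat.land (Nat.shiftRight n 10) 1023))))
          (pushS r f s)))
    cnt

theorem runK_sound (final : Sk → Bool) (cnt n : ℕ) (s : Sk) (hs : s.All)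
    (h : runK final cnt n s = true) : ∃ s', s'.All ∧ final s' = true := by
  induction cnt generalizing s n with
  | zero => exact ⟨s, hs, h⟩
  | succ cnt ih =>
    have h' : stepK s n (fun r f => runK final cnt
        (Nat.shiftRight n (Nat.add 60 (Nat.mul 36 (Nat.land (Nat.shiftRight n 10) 1023))))
        (pushS r f s)) = true := h
    obtain ⟨R, F, hG, hk⟩ := stepK_sound s hs n _ h'
    exact ih _ _ (pushS_all _ _ _ hG hs) hk

/-- Run a list of chunks of packed nodes; each chunk is `cnt + 2 ^ 16 * nodes`. -/
noncomputable def runChunksK (final : Sk → Bool) (cs : List ℕ) : Sk → Bool :=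
  List.rec (motive := fun _ => Sk → Bool) final
    (fun c _ ih s => runK ih (Nat.land c 65535) (Nat.shiftRight c 16) s)
    cs

theorem runChunksK_sound (final : Sk → Bool) (cs : List ℕ) (s : Sk)
    (hs : s.All) (h : runChunksK final cs s = true) :
    ∃ s', s'.All ∧ final s' = true := by
  induction cs generalizing s with
  | nil => exact ⟨s, hs, h⟩
  | cons c cs ih =>
    have h' : runK (runChunksK final cs) (Nat.land c 65535) (Nat.shiftRight c 16) s = true := h
    obtain ⟨s1, hs1, h1⟩ := runK_sound _ _ _ s hs h'
    exact ih _ hs1 h1

/-! ### Pairs of masks packed in one number, and segments of certificates -/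

/-- The packed number `r + 2 ^ 529 * f` is a good pair. -/
def GoodP (p : ℕ) : Prop := Good (Nat.land p 1757388200993436087035366604564836663620975436836686184804982645551499054949799949343375268009332366074187855716219099657503228927927460816018951242525454630911) (Nat.shiftRight p 529)

/-- Push packed pairs. -/
noncomputable def pushAll (ps : List ℕ) : Sk → Sk :=
  List.rec (motive := fun _ => Sk → Sk) (fun s => s)
    (fun p _ ih s => ih (pushS (Nat.land p 1757388200993436087035366604564836663620975436836686184804982645551499054949799949343375268009332366074187855716219099657503228927927460816018951242525454630911) (Nat.shiftRight p 529) s))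
    ps

theorem pushAll_all (ps : List ℕ) (s : Sk) (hp : ∀ p ∈ ps, GoodP p) (hs : s.All) :
    (pushAll ps s).All := by
  induction ps generalizing s with
  | nil => exact hs
  | cons p ps ih =>
    exact ih _ (fun q hq => hp q (List.mem_cons_of_mem _ hq))
      (pushS_all _ _ _ (hp p List.mem_cons_self) hs)

/-- Push lists of packed pairs. -/
noncomputable def pushLists (ls : List (List ℕ)) : Sk → Sk :=
  List.rec (motive := fun _ => Sk → Sk) (fun s => s)
    (fun l _ ih s => ih (pushAll l s))
    ls

theorem pushLists_all (ls : List (List ℕ)) (s : Sk) (hp : ∀ l ∈ ls, ∀ p ∈ l, GoodP p)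
    (hs : s.All) : (pushLists ls s).All := by
  induction ls generalizing s with
  | nil => exact hs
  | cons l ls ih =>
    exact ih _ (fun q hq => hp q (List.mem_cons_of_mem _ hq))
      (pushAll_all _ _ (hp l List.mem_cons_self) hs)

/-- Compare the list of packed pairs with the entries at the given distances. -/
noncomputable def outK (s : Sk) (ds : List ℕ) : List ℕ → Bool :=
  List.rec (motive := fun _ => List ℕ → Bool)
    (fun ps => List.rec (motive := fun _ => Bool) true (fun _ _ _ => false) ps)
    (fun d _ ih ps =>
      List.rec (motive := fun _ => Bool) false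
        (fun p ps' _ =>
          getK (fun r f =>
              Bool.rec (motive := fun _ => Bool) false
                (Bool.rec (motive := fun _ => Bool) false (ih ps')
                  (Nat.beq f (Nat.shiftRight p 529)))
                (Nat.beq r (Nat.land p 1757388200993436087035366604564836663620975436836686184804982645551499054949799949343375268009332366074187855716219099657503228927927460816018951242525454630911)))
            s d) ps)
    ds

theorem outK_sound (s : Sk) (hs : s.All) (ds ps : List ℕ) (h : outK s ds ps = true) :
    ∀ p ∈ ps, GoodP p := by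
  induction ds generalizing ps with
  | nil =>
    cases ps with
    | nil => simp
    | cons p ps => exact absurd h (by simp [outK])
  | cons d ds ih =>
    cases ps with
    | nil => exact absurd h (by simp [outK])
    | cons p ps =>
      have h' : getK (fun r f =>
          Bool.rec (motive := fun _ => Bool) false
            (Bool.rec (motive := fun _ => Bool) false (outK s ds ps)
              (Nat.beq f (Nat.shiftRight p 529)))
            (Nat.beq r (Nat.land p 1757388200993436087035366604564836663620975436836686184804982645551499054949799949343375268009332366074187855716219099657503228927927460816018951242525454630911))) s d = true := h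
      obtain ⟨r, f, hG, hk⟩ := getK_sound _ s hs _ h'
      cases e1 : Nat.beq r (Nat.land p 1757388200993436087035366604564836663620975436836686184804982645551499054949799949343375268009332366074187855716219099657503228927927460816018951242525454630911)
      · rw [e1] at hk; exact absurd hk (by simp)
      · rw [e1] at hk
        cases e2 : Nat.beq f (Nat.shiftRight p 529)
        · rw [e2] at hk; exact absurd hk (by simp)
        · rw [e2] at hk
          have e1' := Nat.eq_of_beq_eq_true e1
          have e2' := Nat.eq_of_beq_eq_true e2
          intro q hq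
          rcases List.mem_cons.1 hq with rfl | hq
          · unfold GoodP
            rw [← e1', ← e2']; exact hG
          · exact ih _ hk q hq

/-- Run a segment of a certificate: start from the lists of packed pairs `init`, run the chunks
`cs`, and compare the packed pairs `ps` with the entries at the distances `ds`. -/
noncomputable def checkSeg (init : List (List ℕ)) (cs ds ps : List ℕ) : Bool :=
  runChunksK (fun s => outK s ds ps) cs (pushLists init Sk.nil)

theorem checkSeg_sound {init : List (List ℕ)} {cs ds ps : List ℕ}
    (hi : ∀ l ∈ init, ∀ p ∈ l, GoodP p) (h : checkSeg init cs ds ps = true) :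
    ∀ p ∈ ps, GoodP p := by
  obtain ⟨s, hs, h1⟩ := runChunksK_sound _ cs _ (pushLists_all init Sk.nil hi trivial) h
  exact outK_sound s hs ds ps h1

/-- A single packed pair gives the pair of masks. -/
theorem good_of_goodP {p R F : ℕ} (hp : GoodP p) (h1 : Nat.land p 1757388200993436087035366604564836663620975436836686184804982645551499054949799949343375268009332366074187855716219099657503228927927460816018951242525454630911 = R)
    (h2 : Nat.shiftRight p 529 = F) : Good R F := by
  unfold GoodP at hp
  rw [h1, h2] at hp
  exact hp

end Vale.Agent.Lib.P062b
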