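import Vale.Agent.Lib.P062.Sym
import Vale.Agent.Lib.P062b.Core

/-!
Levels of a Maker strategy with one open branch: at a level Maker moves `x`, every Breaker reply
except `h` is handled by a certificate, and the reply `h` leads to the next level.
-/

namespace Vale.Agent.Lib.P062b

open Vale.Agent.Lib.P062

/-- The cells with the given window indices. -/
def cellsL (l : List ℕ) : Finset Cell := (l.map cellOf).toFinset

theorem mem_cellsL {l : List ℕ} {j : ℕ} : cellOf j ∈ cellsL l ↔ j ∈ l := by
  simp only [cellsL, List.mem_toFinset, List.mem_map]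
  constructor
  · rintro ⟨a, ha, hj⟩
    rw [← cellOf_inj hj]; exact ha
  · intro h
    exact ⟨j, h, rfl⟩

theorem cellsL_cons (x : ℕ) (l : List ℕ) : cellsL (x :: l) = insert (cellOf x) (cellsL l) := by
  simp [cellsL]

theorem tb_maskOfList_of_mem : ∀ (l : List ℕ) (i : ℕ), i ∈ l → tb (maskOfList l) i = true := by
  intro l
  induction l with
  | nil =>
    intro i h
    simp at h
  | cons a l ih =>
    intro i h
    simp only [maskOfList, tb_lor, tb_bitm, Bool.or_eq_true, decide_eq_true_eq]
    rcases List.mem_cons.1 h with h | h
    · exact Or.inl h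
    · exact Or.inr (ih i h)

/-- The first part of a packed pair. -/
def fstP (p : ℕ) : ℕ := Nat.land p 1757388200993436087035366604564836663620975436836686184804982645551499054949799949343375268009332366074187855716219099657503228927927460816018951242525454630911

/-- The second part of a packed pair. -/
def sndP (p : ℕ) : ℕ := Nat.shiftRight p 529

theorem good_of_mem {outs : List ℕ} (hg : ∀ p ∈ outs, GoodP p) {p : ℕ} (hp : p ∈ outs) :
    Good (fstP p) (sndP p) := hg p hp

/-- All bits of `a` are bits of `b`. -/
def subM (a b : ℕ) : Bool := Nat.beq (Nat.lor a b) b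

/-- No bit of `a` is a bit of `b`. -/
def disjM (a b : ℕ) : Bool := Nat.beq (Nat.land a b) 0

theorem subM_sound {a b : ℕ} (h : subM a b = true) {i : ℕ} (hi : tb a i = true) :
    tb b i = true := by
  have e := Nat.eq_of_beq_eq_true h
  have := congrArg (fun n => tb n i) e
  simp only [tb_lor, hi, Bool.true_or] at this
  exact this.symm

theorem disjM_sound {a b : ℕ} (h : disjM a b = true) {i : ℕ} (hi : tb a i = true) :
    tb b i = false := by
  have e := Nat.eq_of_beq_eq_true h
  have := congrArg (fun n => tb n i) e
  simp only [tb_land, hi, Bool.true_and] at this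
  rw [this, tb_eq]; simp

/-- The packed pair `p` handles the reply `i` on the masks `Mm`, `Bm`. -/
def handles (Mm Bm i p : ℕ) : Bool :=
  subM (fstP p) Mm && (disjM (sndP p) Bm && !(tb (sndP p) i))

/-- The check of one level. -/
def checkLevel (lM lB : List ℕ) (x h pass : ℕ) (outs : List ℕ) : Bool :=
  (!(tb (maskOfList lM) x)) && ((!(tb (maskOfList lB) x)) && (outs.elem pass &&
    (subM (fstP pass) (maskOfList (x :: lM)) && (disjM (sndP pass) (maskOfList lB) &&
      (Nat.beq (Nat.shiftRight (sndP pass) 529) 0 &&
        (List.range 529).all (fun i =>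
          (!(tb (sndP pass) i)) || (tb (maskOfList (x :: lM)) i || (Nat.beq i h ||
            outs.any (handles (maskOfList (x :: lM)) (maskOfList lB) i)))))))))

theorem tb_lt_of_shift {m k i : ℕ} (h : Nat.beq (Nat.shiftRight m k) 0 = true)
    (hi : tb m i = true) : i < k := by
  by_contra hc
  have e : m >>> k = 0 := Nat.eq_of_beq_eq_true h
  rw [tb_eq] at hi
  have h2 : (m >>> k).testBit (i - k) = m.testBit i := by
    rw [Nat.testBit_shiftRight]
    congr 1
    omega
  rw [e, hi] at h2
  simp at h2

/-- One level: the check and the open branch give the position of the level. -/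
theorem level_step {lM lB : List ℕ} {x h pass : ℕ} {outs : List ℕ} (hg : ∀ p ∈ outs, GoodP p)
    (hc : checkLevel lM lB x h pass outs = true)
    (hole : MakerForces (cellsL (x :: lM)) (cellsL (h :: lB))) :
    MakerForces (cellsL lM) (cellsL lB) := by
  simp only [checkLevel, Bool.and_eq_true, Bool.not_eq_true'] at hc
  obtain ⟨hx1, hx2, hp, hsub, hdisj, hsh, hall⟩ := hc
  have hpm : pass ∈ outs := by simpa using hp
  have hGp := good_of_mem hg hpm
  rw [List.all_eq_true] at hall
  have hxM : cellOf x ∉ cellsL lM := by
    intro hm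
    rw [mem_cellsL] at hm
    rw [tb_maskOfList_of_mem _ _ hm] at hx1
    exact Bool.noConfusion hx1
  have hxB : cellOf x ∉ cellsL lB := by
    intro hm
    rw [mem_cellsL] at hm
    rw [tb_maskOfList_of_mem _ _ hm] at hx2
    exact Bool.noConfusion hx2
  refine MakerForces.move (cellOf x) hxM hxB ?_
  intro y hy1 hy2
  rw [← cellsL_cons] at hy1 ⊢
  have hR : ∀ {r : ℕ}, subM r (maskOfList (x :: lM)) = true → ∀ i, tb r i = true →
      cellOf i ∈ cellsL (x :: lM) := by
    intro r hr i hi
    rw [mem_cellsL]
    exact mem_of_tb_maskOfList _ _ (subM_sound hr hi)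
  have hB : ∀ {f : ℕ}, disjM f (maskOfList lB) = true → ∀ i, tb f i = true →
      cellOf i ∉ cellsL lB := by
    intro f hf i hi hm
    rw [mem_cellsL] at hm
    have h1 := disjM_sound hf hi
    rw [tb_maskOfList_of_mem _ _ hm] at h1
    exact Bool.noConfusion h1
  by_cases hyh : y = cellOf h
  · rw [hyh, ← cellsL_cons]
    exact hole
  by_cases hy : ∃ i, tb (sndP pass) i = true ∧ cellOf i = y
  · obtain ⟨i, hi, rfl⟩ := hy
    have hlt := tb_lt_of_shift hsh hi
    have h1 := hall i (List.mem_range.2 hlt)
    simp only [Bool.or_eq_true, Bool.not_eq_true', List.any_eq_true] at h1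
    rcases h1 with h1 | h1 | h1 | ⟨p, hpo, hph⟩
    · rw [hi] at h1
      exact Bool.noConfusion h1
    · exfalso
      apply hy1
      rw [mem_cellsL]
      exact mem_of_tb_maskOfList _ _ h1
    · exfalso
      apply hyh
      rw [Nat.eq_of_beq_eq_true h1]
    · simp only [handles, Bool.and_eq_true, Bool.not_eq_true'] at hph
      obtain ⟨hph1, hph2, hph3⟩ := hph
      apply good_of_mem hg hpo
      · exact hR hph1
      · intro k hk
        rw [Finset.mem_insert]
        rintro (h3 | h3)
        · have := cellOf_inj h3
          subst this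
          rw [hk] at hph3
          exact Bool.noConfusion hph3
        · exact hB hph2 k hk h3
  · apply hGp
    · exact hR hsub
    · intro k hk
      rw [Finset.mem_insert]
      rintro (h3 | h3)
      · exact hy ⟨k, hk, h3⟩
      · exact hB hdisj k hk h3

end Vale.Agent.Lib.P062b
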