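import Vale.Agent.Lib.P062b.Chain
import Vale.Agent.Lib.P062b.CertFiveL0
import Vale.Agent.Lib.P062b.CertFiveL1
import Vale.Agent.Lib.P062b.CertFiveL2
import Vale.Agent.Lib.P062b.CertFiveL3
import Vale.Agent.Lib.P062b.CertFiveL4

namespace Vale.Agent.Lib.P062b.FiveChain

open Vale.Agent.Lib.P062

theorem step0 (hole : MakerForces (cellsL (287 :: [264])) (cellsL (310 :: [265]))) :
    MakerForces (cellsL [264]) (cellsL [265]) :=
  level_step (pass := 0x500000fc0003f0000ef00001c0001e00001f00003e0000700000e0000140000000000000000000000000000000000000000000000000000000000000000000000000000000000000000000800001000000000000000000000000000000000000000000000000000000000000000000) (outs := Vale.Agent.Lib.P062b.CertFiveL0.outs)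
    Vale.Agent.Lib.P062b.CertFiveL0.outs_good (by decide +kernel) hole

theorem step1 (hole : MakerForces (cellsL (261 :: [287, 264])) (cellsL (262 :: [310, 265]))) :
    MakerForces (cellsL [287, 264]) (cellsL [310, 265]) :=
  level_step (pass := 0x1400003c00007c0002f00001b0000fe0000f00000e000014000000000000000000000000000000000000000000000000000000000000000000000000000000000000000000000000000000800001200000000000000000000000000000000000000000000000000000000000000000) (outs := Vale.Agent.Lib.P062b.CertFiveL1.outs)
    Vale.Agent.Lib.P062b.CertFiveL1.outs_good (by decide +kernel) hole

theorem step2 (hole : MakerForces (cellsL (284 :: [261, 287, 264])) (cellsL (307 :: [262, 310, 265]))) :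
    MakerForces (cellsL [261, 287, 264]) (cellsL [262, 310, 265]) :=
  level_step (pass := 0x100001a00003400007e0006d8000130000fc0000fe0001f00000e000010000000000000000000000000000000000000000000000000000000000000000000000000000000000000000000000000900001200000000000000000000000000000000000000000000000000000000000000000) (outs := Vale.Agent.Lib.P062b.CertFiveL2.outs)
    Vale.Agent.Lib.P062b.CertFiveL2.outs_good (by decide +kernel) hole

theorem step3 (hole : MakerForces (cellsL (215 :: [284, 261, 287, 264])) (cellsL (238 :: [307, 262, 310, 265]))) :
    MakerForces (cellsL [284, 261, 287, 264]) (cellsL [307, 262, 310, 265]) :=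
  level_step (pass := 0x280000d0000120000080000280000700000a000000000000000000000000000000000000000000000000000000000000000000000000000000000000000000000000000000900001200000000000800000000000000000000000000000000000000000000000000000) (outs := Vale.Agent.Lib.P062b.CertFiveL3.outs)
    Vale.Agent.Lib.P062b.CertFiveL3.outs_good (by decide +kernel) hole

theorem step4 (hole : MakerForces (cellsL (241 :: [215, 284, 261, 287, 264])) (cellsL (218 :: [238, 307, 262, 310, 265]))) :
    MakerForces (cellsL [215, 284, 261, 287, 264]) (cellsL [238, 307, 262, 310, 265]) :=
  level_step (pass := 0x400000d0000120000800001e00003f000040000000000000000000000000000000000000000000000000000000000000000000000000000000000000000000000000000000900001200002000000800000000000000000000000000000000000000000000000000000) (outs := Vale.Agent.Lib.P062b.CertFiveL4.outs)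
    Vale.Agent.Lib.P062b.CertFiveL4.outs_good (by decide +kernel) hole

end Vale.Agent.Lib.P062b.FiveChain
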